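import Crest.Agent.Helper47.Snaky.Symm

/-!
# S0047 (Snaky): assembly of Maker's first move

Maker's first stone is the centre `A = (c, c)`.  Inputs (from any certificate checker):
* `h0 : ZWin n {A} ∅ Zh` — the one-handicap win (Breaker's first stone is outside the zone `Zh`);
* `hreps` — for every cell `r₀` of a list `reps` of representative first replies, some zone win
  `ZWin n {A} {r₀} Z`;
* `hcov` — a Boolean check, evaluated by the kernel, that every cell `r ≠ A` of `Zh` is either
  outside the image of `Zh` under one of the eight symmetries of the board fixing `A`, or is the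
  image of a representative under such a symmetry.

Output: `MWin (n + 1) ∅ ∅`; with `n = 20` helper20's `result_of_mwin` gives the statement.
The zone `Zh` enters the Boolean check only through a membership test `mem` and a list `cells`
containing its elements, so the lemma does not depend on how a checker represents cell sets.
-/

set_option autoImplicit false

namespace Crest.Agent.Helper81.Snaky

open Crest.CombinatoricsR.PolyominoGame
open Crest.Agent.Helper20.Snaky
open Crest.Agent.Helper47.Snaky

/-- First move: Maker claims `A`.  The default continuation `h0` answers every reply outside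
its zone `Zh`; every other cell of `Zh` needs its own win. -/
theorem mwin_root {n : ℕ} (A : Cell) (Zh : Finset Cell) (h0 : ZWin n {A} ∅ Zh)
    (hrep : ∀ r ∈ Zh, r ≠ A → ∃ Z' : Finset Cell, ZWin n {A} {r} Z') :
    MWin (n + 1) ∅ ∅ := by
  refine MWin.step n ∅ ∅ A (Finset.notMem_empty _) (Finset.notMem_empty _) (fun r _ hrA _ => ?_)
  have e1 : insert A (∅ : Finset Cell) = {A} := rfl
  have e2 : insert r (∅ : Finset Cell) = {r} := rfl
  rw [e1, e2]
  by_cases hr : r ∈ Zh
  · obtain ⟨Z', hZ'⟩ := hrep r hr hrA
    exact hZ'.mwin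
  · refine h0 {r} ?_
    intro x hx hxZ
    rw [Finset.mem_singleton] at hx
    subst hx
    exact absurd hxZ hr

theorem d4fun_centre (c : ℤ) (k : ℕ) : d4fun c k (c, c) = (c, c) := by
  rcases Nat.lt_or_ge k 8 with hk | hk
  · interval_cases k <;> simp [d4fun] <;> ring
  · exact d4fun_of_ge c hk _

/-- A reply outside the image of the default zone under a symmetry fixing the centre is answered
by the image of the default continuation. -/
theorem zwin_reply_of_image (c : ℤ) (k : ℕ) {n : ℕ} {r : Cell} {Zh : Finset Cell}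
    (h0 : ZWin n {(c, c)} ∅ Zh) (hr : r ∉ Zh.image (d4fun c k)) :
    ZWin n {(c, c)} {r} (Zh.image (d4fun c k)) := by
  have h1 := zwin_d4 c k h0
  rw [Finset.image_singleton, Finset.image_empty, d4fun_centre] at h1
  refine h1.mono le_rfl (Finset.Subset.refl _) (Finset.Subset.refl _) ?_
  intro x hx hxZ
  rw [Finset.mem_singleton] at hx
  subst hx
  exact absurd hxZ hr

/-- A reply that is the image of a representative reply under a symmetry fixing the centre. -/
theorem zwin_reply_of_rep (c : ℤ) (k : ℕ) {n : ℕ} {r₀ : Cell} {Z₀ : Finset Cell}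
    (h : ZWin n {(c, c)} {r₀} Z₀) :
    ZWin n {(c, c)} {d4fun c k r₀} (Z₀.image (d4fun c k)) := by
  have h1 := zwin_d4 c k h
  rw [Finset.image_singleton, Finset.image_singleton, d4fun_centre] at h1
  exact h1

/-- The Boolean test for one reply cell `r`: for some `k < 8`, either the preimage of `r` under
the `k`-th symmetry fails the membership test of the default zone, or `r` is the image of a
representative. -/
def coverOK (c : ℤ) (mem : Cell → Bool) (reps : List Cell) (r : Cell) : Bool :=
  (List.range 8).any fun k =>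
    !(mem (d4fun c (d4inv k) r)) || reps.any (fun r₀ => decide (d4fun c k r₀ = r))

theorem zwin_of_coverOK (c : ℤ) {n : ℕ} (Zh : Finset Cell) (mem : Cell → Bool)
    (reps : List Cell) (hmem : ∀ x ∈ Zh, mem x = true) (h0 : ZWin n {(c, c)} ∅ Zh)
    (hreps : ∀ r₀ ∈ reps, ∃ Z : Finset Cell, ZWin n {(c, c)} {r₀} Z) (r : Cell)
    (h : coverOK c mem reps r = true) : ∃ Z' : Finset Cell, ZWin n {(c, c)} {r} Z' := by
  unfold coverOK at h
  rw [List.any_eq_true] at h
  obtain ⟨k, _, hk⟩ := h
  rw [Bool.or_eq_true] at hk
  rcases hk with hk | hk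
  · refine ⟨_, zwin_reply_of_image c k h0 ?_⟩
    intro hr
    obtain ⟨x, hx, rfl⟩ := Finset.mem_image.mp hr
    rw [d4fun_inv] at hk
    rw [hmem x hx] at hk
    exact absurd hk (by decide)
  · rw [List.any_eq_true] at hk
    obtain ⟨r₀, hr₀, hrr⟩ := hk
    have hrr' : d4fun c k r₀ = r := of_decide_eq_true hrr
    obtain ⟨Z, hZ⟩ := hreps r₀ hr₀
    exact ⟨_, hrr' ▸ zwin_reply_of_rep c k hZ⟩

/-- Root assembly with a kernel-checkable covering test. -/
theorem mwin_of_cover (c : ℤ) {n : ℕ} (Zh : Finset Cell) (mem : Cell → Bool)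
    (cells reps : List Cell) (hmem : ∀ x ∈ Zh, mem x = true) (hcells : ∀ x ∈ Zh, x ∈ cells)
    (h0 : ZWin n {(c, c)} ∅ Zh)
    (hreps : ∀ r₀ ∈ reps, ∃ Z : Finset Cell, ZWin n {(c, c)} {r₀} Z)
    (hcov : cells.all (fun r => !(mem r) || decide (r = (c, c)) || coverOK c mem reps r)
      = true) :
    MWin (n + 1) ∅ ∅ := by
  refine mwin_root (c, c) Zh h0 (fun r hr hrA => ?_)
  rw [List.all_eq_true] at hcov
  have h1 := hcov r (hcells r hr)
  rw [Bool.or_eq_true, Bool.or_eq_true] at h1
  rcases h1 with (h1 | h1) | h1
  · rw [hmem r hr] at h1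
    exact absurd h1 (by decide)
  · exact absurd (of_decide_eq_true h1) hrA
  · exact zwin_of_coverOK c Zh mem reps hmem h0 hreps r h1

/-- The cells of the `W × W` window with corner `(0, 0)`, row by row. -/
def windowCells (W : ℕ) : List Cell :=
  (List.range W).flatMap fun (y : ℕ) => (List.range W).map fun (x : ℕ) => ((x : ℤ), (y : ℤ))

theorem mem_windowCells {W : ℕ} {p : Cell} (h1 : 0 ≤ p.1) (h2 : p.1 < W) (h3 : 0 ≤ p.2)
    (h4 : p.2 < W) : p ∈ windowCells W := by
  obtain ⟨x, y⟩ := p
  simp only at h1 h2 h3 h4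
  have hy : y.toNat < W := by omega
  have hx : x.toNat < W := by omega
  have hy' : ((y.toNat : ℕ) : ℤ) = y := by omega
  have hx' : ((x.toNat : ℕ) : ℤ) = x := by omega
  unfold windowCells
  rw [List.mem_flatMap]
  refine ⟨y.toNat, List.mem_range.mpr hy, ?_⟩
  rw [List.mem_map]
  exact ⟨x.toNat, List.mem_range.mpr hx, by rw [hx', hy']⟩

end Crest.Agent.Helper81.Snaky
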