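import Crest.Agent.Helper32.Snaky.Rules
import Crest.Agent.Helper81.Snaky.Root

/-!
# S0047 (Snaky): root assembly for helper32's bitboard lemmas

`mwin_of_wins_cover` : from the one-handicap lemma `Wins W d₀ M₀ 0 zh` (Maker's first stone at the
centre `(c, c)` of the `W × W` window, `M₀ = 2 ^ (c * W + c)`), one lemma
`Wins W d M₀ (2 ^ (y * W + x)) Z` for each representative reply `(x, y)` of a list `reps`, and the
Boolean covering test of `Crest.Agent.Helper81.Snaky.mwin_of_cover` (evaluated by the kernel),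
conclude `MWin (n + 1) ∅ ∅`.  No bitboard image under a symmetry is ever computed.
-/

set_option autoImplicit false

namespace Crest.Agent.Helper81.Snaky

open Crest.CombinatoricsR.PolyominoGame
open Crest.Agent.Helper20.Snaky
open Crest.Agent.Helper32.Snaky
open Crest.Agent.Helper47.Snaky

/-- Kernel-friendly membership test of a board cell in a bitboard of the `W × W` window. -/
def memBB (W X : ℕ) (r : Cell) : Bool :=
  decide (0 ≤ r.1) && decide (r.1 < (W : ℤ)) && decide (0 ≤ r.2) && decide (r.2 < (W : ℤ)) &&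
    tb X (r.2.toNat * W + r.1.toNat)

theorem lt_of_testBit_of_lt {X k N : ℕ} (hX : X < 2 ^ N) (hk : X.testBit k = true) : k < N := by
  by_contra hN
  have h1 : 2 ^ k ≤ X := Nat.ge_two_pow_of_testBit hk
  have h2 : 2 ^ N ≤ 2 ^ k := Nat.pow_le_pow_right (by norm_num) (by omega)
  omega

theorem memBB_of_mem {W X : ℕ} (hX : X < 2 ^ (W * W)) {x : Cell} (hx : x ∈ cells W X) :
    memBB W X x = true ∧ x ∈ windowCells W := by
  rw [mem_cells] at hx
  obtain ⟨k, hk, rfl⟩ := hx
  have hkW : k < W * W := lt_of_testBit_of_lt hX hk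
  have hW : 0 < W := by
    rcases Nat.eq_zero_or_pos W with h | h
    · subst h; simp at hkW
    · exact h
  have h1 : k % W < W := Nat.mod_lt _ hW
  have h2 : k / W < W := Nat.div_lt_of_lt_mul hkW
  have e1 : ((((k % W : ℕ) : ℤ)).toNat) = k % W := Int.toNat_natCast _
  have e2 : ((((k / W : ℕ) : ℤ)).toNat) = k / W := Int.toNat_natCast _
  have e3 : k / W * W + k % W = k := by
    rw [Nat.mul_comm]; exact Nat.div_add_mod k W
  refine ⟨?_, ?_⟩
  · unfold memBB cellOf
    simp only [Bool.and_eq_true, decide_eq_true_eq]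
    refine ⟨⟨⟨⟨?_, ?_⟩, ?_⟩, ?_⟩, ?_⟩
    · exact Int.natCast_nonneg _
    · exact_mod_cast h1
    · exact Int.natCast_nonneg _
    · exact_mod_cast h2
    · rw [e1, e2, e3, tb_eq]
      exact hk
  · unfold cellOf
    refine mem_windowCells ?_ ?_ ?_ ?_
    · exact Int.natCast_nonneg _
    · show ((k % W : ℕ) : ℤ) < (W : ℤ)
      exact_mod_cast h1
    · exact Int.natCast_nonneg _
    · show ((k / W : ℕ) : ℤ) < (W : ℤ)
      exact_mod_cast h2

theorem cells_two_pow (W m : ℕ) : cells W (2 ^ m) = {cellOf W m} := by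
  have h := cells_or_two_pow W 0 m
  rw [Nat.zero_or, cells_zero] at h
  rw [h]
  rfl

theorem cells_centre {W c : ℕ} (hc : c < W) :
    cells W (2 ^ (c * W + c)) = {((c : ℤ), (c : ℤ))} := by
  rw [cells_two_pow, cellOf_mul_add hc]

/-- What the root assembly needs for a representative first reply `p = (x, y)`: a bitboard
lemma at Maker stones `M₀` of depth at most `n` whose zone either misses the reply cell or
accounts for a Breaker stone on it. -/
def RepOK (W n M₀ : ℕ) (p : ℕ × ℕ) : Prop :=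
  ∃ d Bz Z : ℕ, d ≤ n ∧ p.1 < W ∧
    (!(tb Z (p.2 * W + p.1)) || tb Bz (p.2 * W + p.1)) = true ∧ Wins W d M₀ Bz Z

theorem repOK {W n M₀ : ℕ} (x y : ℕ) {d Bz Z : ℕ} (h : Wins W d M₀ Bz Z) (hd : d ≤ n)
    (hx : x < W) (hb : (!(tb Z (y * W + x)) || tb Bz (y * W + x)) = true) :
    RepOK W n M₀ (x, y) :=
  ⟨d, Bz, Z, hd, hx, hb, h⟩

theorem reps_nil {P : ℕ × ℕ → Prop} : ∀ p ∈ ([] : List (ℕ × ℕ)), P p := by
  intro p hp
  cases hp

theorem reps_cons {P : ℕ × ℕ → Prop} {a : ℕ × ℕ} {l : List (ℕ × ℕ)} (ha : P a)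
    (hl : ∀ p ∈ l, P p) : ∀ p ∈ a :: l, P p := by
  intro p hp
  rcases List.mem_cons.mp hp with rfl | hp
  · exact ha
  · exact hl p hp

/-- Root assembly on bitboards.  `reps` lists the representative first replies as `(x, y)`. -/
theorem mwin_of_wins_cover {W c n : ℕ} (hc : c < W) (M₀ zh d₀ : ℕ) (reps : List (ℕ × ℕ))
    (hM₀ : M₀ = 2 ^ (c * W + c)) (hzh : zh < 2 ^ (W * W)) (hd₀ : d₀ ≤ n)
    (h0 : Wins W d₀ M₀ 0 zh)
    (hreps : ∀ p ∈ reps, RepOK W n M₀ p)
    (hcov : (windowCells W).all (fun r => !(memBB W zh r) || decide (r = ((c : ℤ), (c : ℤ))) ||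
      coverOK (c : ℤ) (memBB W zh) (reps.map fun p => ((p.1 : ℤ), (p.2 : ℤ))) r) = true) :
    MWin (n + 1) ∅ ∅ := by
  subst hM₀
  have h0' : ZWin n {((c : ℤ), (c : ℤ))} ∅ (cells W zh) := by
    have h := h0.zwin
    rw [cells_centre hc, cells_zero] at h
    exact h.mono hd₀ (Finset.Subset.refl _) (Finset.Subset.refl _) (fun x hx _ => hx)
  refine mwin_of_cover (c : ℤ) (cells W zh) (memBB W zh) (windowCells W)
    (reps.map fun p => ((p.1 : ℤ), (p.2 : ℤ)))
    (fun x hx => (memBB_of_mem hzh hx).1) (fun x hx => (memBB_of_mem hzh hx).2) h0' ?_ hcov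
  intro r₀ hr₀
  rw [List.mem_map] at hr₀
  obtain ⟨p, hp, rfl⟩ := hr₀
  obtain ⟨d, Bz, Z, hd, hpW, hb, hw⟩ := hreps p hp
  have h := hw.zwin
  rw [cells_centre hc] at h
  refine ⟨cells W Z, h.mono hd (Finset.Subset.refl _) (Finset.Subset.refl _) ?_⟩
  intro x hx hxZ
  rw [Finset.mem_singleton] at hx
  subst hx
  rw [← cellOf_mul_add hpW] at hxZ ⊢
  rw [cellOf_mem_cells] at hxZ ⊢
  rw [Bool.or_eq_true, Bool.not_eq_true', tb_eq, tb_eq] at hb
  rcases hb with hb | hb
  · rw [hb] at hxZ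
    exact absurd hxZ (by decide)
  · exact hb

end Crest.Agent.Helper81.Snaky
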